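import Crest.Agent.Lib.PSD.Ldl

/-! # Lib/PSD/Fast : strict (call-by-value) versions of the LDL tests for kernel evaluation (helper7). -/

set_option autoImplicit false

namespace Crest.Agent.PSD

/-- `frc n f = f n`, evaluating `n` first -/
noncomputable def frc (n : ℕ) (f : ℕ → Bool) : Bool :=
  @Nat.rec (fun _ => Bool) false (fun m _ => f m) (Nat.succ n)

theorem frc_eq (n : ℕ) (f : ℕ → Bool) : frc n f = f n := rfl

noncomputable def frcI (z : ℤ) (f : ℤ → Bool) : Bool :=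
  @Int.rec (fun _ => Bool) (fun n => frc n fun m => f (Int.ofNat m))
    (fun n => frc n fun m => f (Int.negSucc m)) z

theorem frcI_eq (z : ℤ) (f : ℤ → Bool) : frcI z f = f z := by cases z <;> rfl

/-- lazy conjunction -/
noncomputable def andB (a b : Bool) : Bool := @Bool.rec (fun _ => Bool) false b a

theorem andB_eq (a b : Bool) : andB a b = (a && b) := by cases a <;> rfl

noncomputable def fm2 (M MM H a11 a21 a22 : ℕ) : Bool :=
  @Bool.rec (fun _ => Bool) false (@Bool.rec (fun _ => Bool) false (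
    Nat.blt (Nat.mod (Nat.add (Nat.mul a11 a22) (Nat.sub MM (Nat.mul a21 a21))) M) H)
    (Nat.blt a11 H)) (Nat.blt 0 a11)

theorem fm2_eq (M MM H a11 a21 a22 : ℕ) :
    fm2 M MM H a11 a21 a22 = pm2 M MM H a11 a21 a22 := by
  rw [pm2]
  unfold fm2 sm
  cases Nat.blt 0 a11 <;> cases Nat.blt a11 H <;> rfl

noncomputable def fm3 (M MM H a11 a21 a22 a31 a32 a33 : ℕ) : Bool :=
  @Bool.rec (fun _ => Bool) false (@Bool.rec (fun _ => Bool) false (
    @Nat.rec (fun _ => Bool) false (fun b22 _ =>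
    @Nat.rec (fun _ => Bool) false (fun b32 _ =>
    @Nat.rec (fun _ => Bool) false (fun b33 _ =>
    fm2 M MM H b22 b32 b33)
      (Nat.succ (Nat.mod (Nat.add (Nat.mul a11 a33) (Nat.sub MM (Nat.mul a31 a31))) M)))
      (Nat.succ (Nat.mod (Nat.add (Nat.mul a11 a32) (Nat.sub MM (Nat.mul a31 a21))) M)))
      (Nat.succ (Nat.mod (Nat.add (Nat.mul a11 a22) (Nat.sub MM (Nat.mul a21 a21))) M)))
    (Nat.blt a11 H)) (Nat.blt 0 a11)

theorem fm3_eq (M MM H a11 a21 a22 a31 a32 a33 : ℕ) :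
    fm3 M MM H a11 a21 a22 a31 a32 a33 = pm3 M MM H a11 a21 a22 a31 a32 a33 := by
  rw [pm3, ← fm2_eq]
  unfold fm3 sm
  cases Nat.blt 0 a11 <;> cases Nat.blt a11 H <;> rfl

noncomputable def fm4 (M MM H a11 a21 a22 a31 a32 a33 a41 a42 a43 a44 : ℕ) : Bool :=
  @Bool.rec (fun _ => Bool) false (@Bool.rec (fun _ => Bool) false (
    @Nat.rec (fun _ => Bool) false (fun b22 _ =>
    @Nat.rec (fun _ => Bool) false (fun b32 _ =>
    @Nat.rec (fun _ => Bool) false (fun b33 _ =>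
    @Nat.rec (fun _ => Bool) false (fun b42 _ =>
    @Nat.rec (fun _ => Bool) false (fun b43 _ =>
    @Nat.rec (fun _ => Bool) false (fun b44 _ =>
    fm3 M MM H b22 b32 b33 b42 b43 b44)
      (Nat.succ (Nat.mod (Nat.add (Nat.mul a11 a44) (Nat.sub MM (Nat.mul a41 a41))) M)))
      (Nat.succ (Nat.mod (Nat.add (Nat.mul a11 a43) (Nat.sub MM (Nat.mul a41 a31))) M)))
      (Nat.succ (Nat.mod (Nat.add (Nat.mul a11 a42) (Nat.sub MM (Nat.mul a41 a21))) M)))
      (Nat.succ (Nat.mod (Nat.add (Nat.mul a11 a33) (Nat.sub MM (Nat.mul a31 a31))) M)))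
      (Nat.succ (Nat.mod (Nat.add (Nat.mul a11 a32) (Nat.sub MM (Nat.mul a31 a21))) M)))
      (Nat.succ (Nat.mod (Nat.add (Nat.mul a11 a22) (Nat.sub MM (Nat.mul a21 a21))) M)))
    (Nat.blt a11 H)) (Nat.blt 0 a11)

theorem fm4_eq (M MM H a11 a21 a22 a31 a32 a33 a41 a42 a43 a44 : ℕ) :
    fm4 M MM H a11 a21 a22 a31 a32 a33 a41 a42 a43 a44 = pm4 M MM H a11 a21 a22 a31 a32 a33 a41 a42 a43 a44 := by
  rw [pm4, ← fm3_eq]
  unfold fm4 sm
  cases Nat.blt 0 a11 <;> cases Nat.blt a11 H <;> rfl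

noncomputable def fm5 (M MM H a11 a21 a22 a31 a32 a33 a41 a42 a43 a44 a51 a52 a53 a54 a55 : ℕ) : Bool :=
  @Bool.rec (fun _ => Bool) false (@Bool.rec (fun _ => Bool) false (
    @Nat.rec (fun _ => Bool) false (fun b22 _ =>
    @Nat.rec (fun _ => Bool) false (fun b32 _ =>
    @Nat.rec (fun _ => Bool) false (fun b33 _ =>
    @Nat.rec (fun _ => Bool) false (fun b42 _ =>
    @Nat.rec (fun _ => Bool) false (fun b43 _ =>
    @Nat.rec (fun _ => Bool) false (fun b44 _ =>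
    @Nat.rec (fun _ => Bool) false (fun b52 _ =>
    @Nat.rec (fun _ => Bool) false (fun b53 _ =>
    @Nat.rec (fun _ => Bool) false (fun b54 _ =>
    @Nat.rec (fun _ => Bool) false (fun b55 _ =>
    fm4 M MM H b22 b32 b33 b42 b43 b44 b52 b53 b54 b55)
      (Nat.succ (Nat.mod (Nat.add (Nat.mul a11 a55) (Nat.sub MM (Nat.mul a51 a51))) M)))
      (Nat.succ (Nat.mod (Nat.add (Nat.mul a11 a54) (Nat.sub MM (Nat.mul a51 a41))) M)))
      (Nat.succ (Nat.mod (Nat.add (Nat.mul a11 a53) (Nat.sub MM (Nat.mul a51 a31))) M)))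
      (Nat.succ (Nat.mod (Nat.add (Nat.mul a11 a52) (Nat.sub MM (Nat.mul a51 a21))) M)))
      (Nat.succ (Nat.mod (Nat.add (Nat.mul a11 a44) (Nat.sub MM (Nat.mul a41 a41))) M)))
      (Nat.succ (Nat.mod (Nat.add (Nat.mul a11 a43) (Nat.sub MM (Nat.mul a41 a31))) M)))
      (Nat.succ (Nat.mod (Nat.add (Nat.mul a11 a42) (Nat.sub MM (Nat.mul a41 a21))) M)))
      (Nat.succ (Nat.mod (Nat.add (Nat.mul a11 a33) (Nat.sub MM (Nat.mul a31 a31))) M)))
      (Nat.succ (Nat.mod (Nat.add (Nat.mul a11 a32) (Nat.sub MM (Nat.mul a31 a21))) M)))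
      (Nat.succ (Nat.mod (Nat.add (Nat.mul a11 a22) (Nat.sub MM (Nat.mul a21 a21))) M)))
    (Nat.blt a11 H)) (Nat.blt 0 a11)

theorem fm5_eq (M MM H a11 a21 a22 a31 a32 a33 a41 a42 a43 a44 a51 a52 a53 a54 a55 : ℕ) :
    fm5 M MM H a11 a21 a22 a31 a32 a33 a41 a42 a43 a44 a51 a52 a53 a54 a55 = pm5 M MM H a11 a21 a22 a31 a32 a33 a41 a42 a43 a44 a51 a52 a53 a54 a55 := by
  rw [pm5, ← fm4_eq]
  unfold fm5 sm
  cases Nat.blt 0 a11 <;> cases Nat.blt a11 H <;> rfl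

noncomputable def fi2 (a11 a21 a22 : ℤ) : Bool :=
  andB (posI a11) (
    nonnegI (sc a11 a22 a21 a21))

theorem fi2_eq (a11 a21 a22 : ℤ) :
    fi2 a11 a21 a22 = psd2 a11 a21 a22 := by
  simp only [fi2, psd2, andB_eq]

noncomputable def fi3 (a11 a21 a22 a31 a32 a33 : ℤ) : Bool :=
  andB (posI a11) (
    frcI (sc a11 a22 a21 a21) fun b22 =>
    frcI (sc a11 a32 a31 a21) fun b32 =>
    frcI (sc a11 a33 a31 a31) fun b33 =>
    fi2 b22 b32 b33)

theorem fi3_eq (a11 a21 a22 a31 a32 a33 : ℤ) :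
    fi3 a11 a21 a22 a31 a32 a33 = psd3 a11 a21 a22 a31 a32 a33 := by
  simp only [fi3, psd3, andB_eq, frcI_eq, fi2_eq]

noncomputable def fi4 (a11 a21 a22 a31 a32 a33 a41 a42 a43 a44 : ℤ) : Bool :=
  andB (posI a11) (
    frcI (sc a11 a22 a21 a21) fun b22 =>
    frcI (sc a11 a32 a31 a21) fun b32 =>
    frcI (sc a11 a33 a31 a31) fun b33 =>
    frcI (sc a11 a42 a41 a21) fun b42 =>
    frcI (sc a11 a43 a41 a31) fun b43 =>
    frcI (sc a11 a44 a41 a41) fun b44 =>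
    fi3 b22 b32 b33 b42 b43 b44)

theorem fi4_eq (a11 a21 a22 a31 a32 a33 a41 a42 a43 a44 : ℤ) :
    fi4 a11 a21 a22 a31 a32 a33 a41 a42 a43 a44 = psd4 a11 a21 a22 a31 a32 a33 a41 a42 a43 a44 := by
  simp only [fi4, psd4, andB_eq, frcI_eq, fi3_eq]

noncomputable def fi5 (a11 a21 a22 a31 a32 a33 a41 a42 a43 a44 a51 a52 a53 a54 a55 : ℤ) : Bool :=
  andB (posI a11) (
    frcI (sc a11 a22 a21 a21) fun b22 =>
    frcI (sc a11 a32 a31 a21) fun b32 =>
    frcI (sc a11 a33 a31 a31) fun b33 =>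
    frcI (sc a11 a42 a41 a21) fun b42 =>
    frcI (sc a11 a43 a41 a31) fun b43 =>
    frcI (sc a11 a44 a41 a41) fun b44 =>
    frcI (sc a11 a52 a51 a21) fun b52 =>
    frcI (sc a11 a53 a51 a31) fun b53 =>
    frcI (sc a11 a54 a51 a41) fun b54 =>
    frcI (sc a11 a55 a51 a51) fun b55 =>
    fi4 b22 b32 b33 b42 b43 b44 b52 b53 b54 b55)

theorem fi5_eq (a11 a21 a22 a31 a32 a33 a41 a42 a43 a44 a51 a52 a53 a54 a55 : ℤ) :
    fi5 a11 a21 a22 a31 a32 a33 a41 a42 a43 a44 a51 a52 a53 a54 a55 = psd5 a11 a21 a22 a31 a32 a33 a41 a42 a43 a44 a51 a52 a53 a54 a55 := by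
  simp only [fi5, psd5, andB_eq, frcI_eq, fi4_eq]

noncomputable def fi6 (a11 a21 a22 a31 a32 a33 a41 a42 a43 a44 a51 a52 a53 a54 a55 a61 a62 a63 a64 a65 a66 : ℤ) : Bool :=
  andB (posI a11) (
    frcI (sc a11 a22 a21 a21) fun b22 =>
    frcI (sc a11 a32 a31 a21) fun b32 =>
    frcI (sc a11 a33 a31 a31) fun b33 =>
    frcI (sc a11 a42 a41 a21) fun b42 =>
    frcI (sc a11 a43 a41 a31) fun b43 =>
    frcI (sc a11 a44 a41 a41) fun b44 =>
    frcI (sc a11 a52 a51 a21) fun b52 =>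
    frcI (sc a11 a53 a51 a31) fun b53 =>
    frcI (sc a11 a54 a51 a41) fun b54 =>
    frcI (sc a11 a55 a51 a51) fun b55 =>
    frcI (sc a11 a62 a61 a21) fun b62 =>
    frcI (sc a11 a63 a61 a31) fun b63 =>
    frcI (sc a11 a64 a61 a41) fun b64 =>
    frcI (sc a11 a65 a61 a51) fun b65 =>
    frcI (sc a11 a66 a61 a61) fun b66 =>
    fi5 b22 b32 b33 b42 b43 b44 b52 b53 b54 b55 b62 b63 b64 b65 b66)

theorem fi6_eq (a11 a21 a22 a31 a32 a33 a41 a42 a43 a44 a51 a52 a53 a54 a55 a61 a62 a63 a64 a65 a66 : ℤ) :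
    fi6 a11 a21 a22 a31 a32 a33 a41 a42 a43 a44 a51 a52 a53 a54 a55 a61 a62 a63 a64 a65 a66 = psd6 a11 a21 a22 a31 a32 a33 a41 a42 a43 a44 a51 a52 a53 a54 a55 a61 a62 a63 a64 a65 a66 := by
  simp only [fi6, psd6, andB_eq, frcI_eq, fi5_eq]

/-- test of the matrix with entries `n_ij - B`; `D = 2B` must be a power of two -/
noncomputable def fb4 (M MM H C D n11 n21 n22 n31 n32 n33 n41 n42 n43 n44 : ℕ) : Bool :=
  @Bool.rec (fun _ => Bool) false (
    @Nat.rec (fun _ => Bool) false (fun b11 _ =>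
    @Nat.rec (fun _ => Bool) false (fun b21 _ =>
    @Nat.rec (fun _ => Bool) false (fun b22 _ =>
    @Nat.rec (fun _ => Bool) false (fun b31 _ =>
    @Nat.rec (fun _ => Bool) false (fun b32 _ =>
    @Nat.rec (fun _ => Bool) false (fun b33 _ =>
    @Nat.rec (fun _ => Bool) false (fun b41 _ =>
    @Nat.rec (fun _ => Bool) false (fun b42 _ =>
    @Nat.rec (fun _ => Bool) false (fun b43 _ =>
    @Nat.rec (fun _ => Bool) false (fun b44 _ =>
    fm4 M MM H b11 b21 b22 b31 b32 b33 b41 b42 b43 b44)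
      (Nat.succ (Nat.mod (Nat.add n44 C) M)))
      (Nat.succ (Nat.mod (Nat.add n43 C) M)))
      (Nat.succ (Nat.mod (Nat.add n42 C) M)))
      (Nat.succ (Nat.mod (Nat.add n41 C) M)))
      (Nat.succ (Nat.mod (Nat.add n33 C) M)))
      (Nat.succ (Nat.mod (Nat.add n32 C) M)))
      (Nat.succ (Nat.mod (Nat.add n31 C) M)))
      (Nat.succ (Nat.mod (Nat.add n22 C) M)))
      (Nat.succ (Nat.mod (Nat.add n21 C) M)))
      (Nat.succ (Nat.mod (Nat.add n11 C) M)))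
    (Nat.blt (Nat.lor (Nat.lor (Nat.lor (Nat.lor (Nat.lor (Nat.lor (Nat.lor (Nat.lor (Nat.lor n11 n21) n22) n31) n32) n33) n41) n42) n43) n44) D)

theorem fb4_s {M MM H C D B : ℕ} (hM : MM = M * M) (hC : C + B = M) (hM0 : 0 < M) (hD : D = 2 * B)
    (hT : 2 * (2 * (2 * (B : ℤ) ^ 2) ^ 2) ^ 2 + H ≤ M) {n11 n21 n22 n31 n32 n33 n41 n42 n43 n44 : ℕ}
    (h : fb4 M MM H C D n11 n21 n22 n31 n32 n33 n41 n42 n43 n44 = true) (x1 x2 x3 x4 : ℝ) :
    0 ≤ q4 ((n11 : ℝ) - B) ((n21 : ℝ) - B) ((n22 : ℝ) - B) ((n31 : ℝ) - B) ((n32 : ℝ) - B) ((n33 : ℝ) - B) ((n41 : ℝ) - B) ((n42 : ℝ) - B) ((n43 : ℝ) - B) ((n44 : ℝ) - B) x1 x2 x3 x4 := by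
  unfold fb4 at h
  cases hb : Nat.blt (Nat.lor (Nat.lor (Nat.lor (Nat.lor (Nat.lor (Nat.lor (Nat.lor (Nat.lor (Nat.lor n11 n21) n22) n31) n32) n33) n41) n42) n43) n44) D with
  | false => rw [hb] at h; exact absurd h (by simp)
  | true =>
  rw [hb] at h
  have hD' : n11 ||| n21 ||| n22 ||| n31 ||| n32 ||| n33 ||| n41 ||| n42 ||| n43 ||| n44 ≤ 2 * B := by
    rw [Nat.blt_eq, hD] at hb; exact hb.le
  have hn11 : n11 ≤ 2 * B := le_trans (le_trans (le_trans (le_trans (le_trans (le_trans (le_trans (le_trans (le_trans (le_trans (Nat.le_refl _) Nat.left_le_or) Nat.left_le_or) Nat.left_le_or) Nat.left_le_or) Nat.left_le_or) Nat.left_le_or) Nat.left_le_or) Nat.left_le_or) Nat.left_le_or) hD'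
  have hn21 : n21 ≤ 2 * B := le_trans (le_trans (le_trans (le_trans (le_trans (le_trans (le_trans (le_trans (le_trans (Nat.right_le_or) Nat.left_le_or) Nat.left_le_or) Nat.left_le_or) Nat.left_le_or) Nat.left_le_or) Nat.left_le_or) Nat.left_le_or) Nat.left_le_or) hD'
  have hn22 : n22 ≤ 2 * B := le_trans (le_trans (le_trans (le_trans (le_trans (le_trans (le_trans (le_trans (Nat.right_le_or) Nat.left_le_or) Nat.left_le_or) Nat.left_le_or) Nat.left_le_or) Nat.left_le_or) Nat.left_le_or) Nat.left_le_or) hD'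
  have hn31 : n31 ≤ 2 * B := le_trans (le_trans (le_trans (le_trans (le_trans (le_trans (le_trans (Nat.right_le_or) Nat.left_le_or) Nat.left_le_or) Nat.left_le_or) Nat.left_le_or) Nat.left_le_or) Nat.left_le_or) hD'
  have hn32 : n32 ≤ 2 * B := le_trans (le_trans (le_trans (le_trans (le_trans (le_trans (Nat.right_le_or) Nat.left_le_or) Nat.left_le_or) Nat.left_le_or) Nat.left_le_or) Nat.left_le_or) hD'
  have hn33 : n33 ≤ 2 * B := le_trans (le_trans (le_trans (le_trans (le_trans (Nat.right_le_or) Nat.left_le_or) Nat.left_le_or) Nat.left_le_or) Nat.left_le_or) hD'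
  have hn41 : n41 ≤ 2 * B := le_trans (le_trans (le_trans (le_trans (Nat.right_le_or) Nat.left_le_or) Nat.left_le_or) Nat.left_le_or) hD'
  have hn42 : n42 ≤ 2 * B := le_trans (le_trans (le_trans (Nat.right_le_or) Nat.left_le_or) Nat.left_le_or) hD'
  have hn43 : n43 ≤ 2 * B := le_trans (le_trans (Nat.right_le_or) Nat.left_le_or) hD'
  have hn44 : n44 ≤ 2 * B := le_trans (Nat.right_le_or) hD'
  have h2 : pm4 M MM H (ub M C n11) (ub M C n21) (ub M C n22) (ub M C n31) (ub M C n32) (ub M C n33) (ub M C n41) (ub M C n42) (ub M C n43) (ub M C n44) = true := by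
    rw [← fm4_eq]; exact h
  have h3 := psd4_s (pm4_s hM hT (ub_s hC hM0 hn11) (ub_s hC hM0 hn21) (ub_s hC hM0 hn22) (ub_s hC hM0 hn31) (ub_s hC hM0 hn32) (ub_s hC hM0 hn33) (ub_s hC hM0 hn41) (ub_s hC hM0 hn42) (ub_s hC hM0 hn43) (ub_s hC hM0 hn44) h2) x1 x2 x3 x4
  simpa only [Int.cast_sub, Int.cast_natCast] using h3

/-- test of the matrix with entries `n_ij - B`; `D = 2B` must be a power of two -/
noncomputable def fb5 (M MM H C D n11 n21 n22 n31 n32 n33 n41 n42 n43 n44 n51 n52 n53 n54 n55 : ℕ) : Bool :=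
  @Bool.rec (fun _ => Bool) false (
    @Nat.rec (fun _ => Bool) false (fun b11 _ =>
    @Nat.rec (fun _ => Bool) false (fun b21 _ =>
    @Nat.rec (fun _ => Bool) false (fun b22 _ =>
    @Nat.rec (fun _ => Bool) false (fun b31 _ =>
    @Nat.rec (fun _ => Bool) false (fun b32 _ =>
    @Nat.rec (fun _ => Bool) false (fun b33 _ =>
    @Nat.rec (fun _ => Bool) false (fun b41 _ =>
    @Nat.rec (fun _ => Bool) false (fun b42 _ =>
    @Nat.rec (fun _ => Bool) false (fun b43 _ =>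
    @Nat.rec (fun _ => Bool) false (fun b44 _ =>
    @Nat.rec (fun _ => Bool) false (fun b51 _ =>
    @Nat.rec (fun _ => Bool) false (fun b52 _ =>
    @Nat.rec (fun _ => Bool) false (fun b53 _ =>
    @Nat.rec (fun _ => Bool) false (fun b54 _ =>
    @Nat.rec (fun _ => Bool) false (fun b55 _ =>
    fm5 M MM H b11 b21 b22 b31 b32 b33 b41 b42 b43 b44 b51 b52 b53 b54 b55)
      (Nat.succ (Nat.mod (Nat.add n55 C) M)))
      (Nat.succ (Nat.mod (Nat.add n54 C) M)))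
      (Nat.succ (Nat.mod (Nat.add n53 C) M)))
      (Nat.succ (Nat.mod (Nat.add n52 C) M)))
      (Nat.succ (Nat.mod (Nat.add n51 C) M)))
      (Nat.succ (Nat.mod (Nat.add n44 C) M)))
      (Nat.succ (Nat.mod (Nat.add n43 C) M)))
      (Nat.succ (Nat.mod (Nat.add n42 C) M)))
      (Nat.succ (Nat.mod (Nat.add n41 C) M)))
      (Nat.succ (Nat.mod (Nat.add n33 C) M)))
      (Nat.succ (Nat.mod (Nat.add n32 C) M)))
      (Nat.succ (Nat.mod (Nat.add n31 C) M)))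
      (Nat.succ (Nat.mod (Nat.add n22 C) M)))
      (Nat.succ (Nat.mod (Nat.add n21 C) M)))
      (Nat.succ (Nat.mod (Nat.add n11 C) M)))
    (Nat.blt (Nat.lor (Nat.lor (Nat.lor (Nat.lor (Nat.lor (Nat.lor (Nat.lor (Nat.lor (Nat.lor (Nat.lor (Nat.lor (Nat.lor (Nat.lor (Nat.lor n11 n21) n22) n31) n32) n33) n41) n42) n43) n44) n51) n52) n53) n54) n55) D)

theorem fb5_s {M MM H C D B : ℕ} (hM : MM = M * M) (hC : C + B = M) (hM0 : 0 < M) (hD : D = 2 * B)
    (hT : 2 * (2 * (2 * (2 * (B : ℤ) ^ 2) ^ 2) ^ 2) ^ 2 + H ≤ M) {n11 n21 n22 n31 n32 n33 n41 n42 n43 n44 n51 n52 n53 n54 n55 : ℕ}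
    (h : fb5 M MM H C D n11 n21 n22 n31 n32 n33 n41 n42 n43 n44 n51 n52 n53 n54 n55 = true) (x1 x2 x3 x4 x5 : ℝ) :
    0 ≤ q5 ((n11 : ℝ) - B) ((n21 : ℝ) - B) ((n22 : ℝ) - B) ((n31 : ℝ) - B) ((n32 : ℝ) - B) ((n33 : ℝ) - B) ((n41 : ℝ) - B) ((n42 : ℝ) - B) ((n43 : ℝ) - B) ((n44 : ℝ) - B) ((n51 : ℝ) - B) ((n52 : ℝ) - B) ((n53 : ℝ) - B) ((n54 : ℝ) - B) ((n55 : ℝ) - B) x1 x2 x3 x4 x5 := by
  unfold fb5 at h
  cases hb : Nat.blt (Nat.lor (Nat.lor (Nat.lor (Nat.lor (Nat.lor (Nat.lor (Nat.lor (Nat.lor (Nat.lor (Nat.lor (Nat.lor (Nat.lor (Nat.lor (Nat.lor n11 n21) n22) n31) n32) n33) n41) n42) n43) n44) n51) n52) n53) n54) n55) D with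
  | false => rw [hb] at h; exact absurd h (by simp)
  | true =>
  rw [hb] at h
  have hD' : n11 ||| n21 ||| n22 ||| n31 ||| n32 ||| n33 ||| n41 ||| n42 ||| n43 ||| n44 ||| n51 ||| n52 ||| n53 ||| n54 ||| n55 ≤ 2 * B := by
    rw [Nat.blt_eq, hD] at hb; exact hb.le
  have hn11 : n11 ≤ 2 * B := le_trans (le_trans (le_trans (le_trans (le_trans (le_trans (le_trans (le_trans (le_trans (le_trans (le_trans (le_trans (le_trans (le_trans (le_trans (Nat.le_refl _) Nat.left_le_or) Nat.left_le_or) Nat.left_le_or) Nat.left_le_or) Nat.left_le_or) Nat.left_le_or) Nat.left_le_or) Nat.left_le_or) Nat.left_le_or) Nat.left_le_or) Nat.left_le_or) Nat.left_le_or) Nat.left_le_or) Nat.left_le_or) hD'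
  have hn21 : n21 ≤ 2 * B := le_trans (le_trans (le_trans (le_trans (le_trans (le_trans (le_trans (le_trans (le_trans (le_trans (le_trans (le_trans (le_trans (le_trans (Nat.right_le_or) Nat.left_le_or) Nat.left_le_or) Nat.left_le_or) Nat.left_le_or) Nat.left_le_or) Nat.left_le_or) Nat.left_le_or) Nat.left_le_or) Nat.left_le_or) Nat.left_le_or) Nat.left_le_or) Nat.left_le_or) Nat.left_le_or) hD'
  have hn22 : n22 ≤ 2 * B := le_trans (le_trans (le_trans (le_trans (le_trans (le_trans (le_trans (le_trans (le_trans (le_trans (le_trans (le_trans (le_trans (Nat.right_le_or) Nat.left_le_or) Nat.left_le_or) Nat.left_le_or) Nat.left_le_or) Nat.left_le_or) Nat.left_le_or) Nat.left_le_or) Nat.left_le_or) Nat.left_le_or) Nat.left_le_or) Nat.left_le_or) Nat.left_le_or) hD'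
  have hn31 : n31 ≤ 2 * B := le_trans (le_trans (le_trans (le_trans (le_trans (le_trans (le_trans (le_trans (le_trans (le_trans (le_trans (le_trans (Nat.right_le_or) Nat.left_le_or) Nat.left_le_or) Nat.left_le_or) Nat.left_le_or) Nat.left_le_or) Nat.left_le_or) Nat.left_le_or) Nat.left_le_or) Nat.left_le_or) Nat.left_le_or) Nat.left_le_or) hD'
  have hn32 : n32 ≤ 2 * B := le_trans (le_trans (le_trans (le_trans (le_trans (le_trans (le_trans (le_trans (le_trans (le_trans (le_trans (Nat.right_le_or) Nat.left_le_or) Nat.left_le_or) Nat.left_le_or) Nat.left_le_or) Nat.left_le_or) Nat.left_le_or) Nat.left_le_or) Nat.left_le_or) Nat.left_le_or) Nat.left_le_or) hD'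
  have hn33 : n33 ≤ 2 * B := le_trans (le_trans (le_trans (le_trans (le_trans (le_trans (le_trans (le_trans (le_trans (le_trans (Nat.right_le_or) Nat.left_le_or) Nat.left_le_or) Nat.left_le_or) Nat.left_le_or) Nat.left_le_or) Nat.left_le_or) Nat.left_le_or) Nat.left_le_or) Nat.left_le_or) hD'
  have hn41 : n41 ≤ 2 * B := le_trans (le_trans (le_trans (le_trans (le_trans (le_trans (le_trans (le_trans (le_trans (Nat.right_le_or) Nat.left_le_or) Nat.left_le_or) Nat.left_le_or) Nat.left_le_or) Nat.left_le_or) Nat.left_le_or) Nat.left_le_or) Nat.left_le_or) hD'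
  have hn42 : n42 ≤ 2 * B := le_trans (le_trans (le_trans (le_trans (le_trans (le_trans (le_trans (le_trans (Nat.right_le_or) Nat.left_le_or) Nat.left_le_or) Nat.left_le_or) Nat.left_le_or) Nat.left_le_or) Nat.left_le_or) Nat.left_le_or) hD'
  have hn43 : n43 ≤ 2 * B := le_trans (le_trans (le_trans (le_trans (le_trans (le_trans (le_trans (Nat.right_le_or) Nat.left_le_or) Nat.left_le_or) Nat.left_le_or) Nat.left_le_or) Nat.left_le_or) Nat.left_le_or) hD'
  have hn44 : n44 ≤ 2 * B := le_trans (le_trans (le_trans (le_trans (le_trans (le_trans (Nat.right_le_or) Nat.left_le_or) Nat.left_le_or) Nat.left_le_or) Nat.left_le_or) Nat.left_le_or) hD'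
  have hn51 : n51 ≤ 2 * B := le_trans (le_trans (le_trans (le_trans (le_trans (Nat.right_le_or) Nat.left_le_or) Nat.left_le_or) Nat.left_le_or) Nat.left_le_or) hD'
  have hn52 : n52 ≤ 2 * B := le_trans (le_trans (le_trans (le_trans (Nat.right_le_or) Nat.left_le_or) Nat.left_le_or) Nat.left_le_or) hD'
  have hn53 : n53 ≤ 2 * B := le_trans (le_trans (le_trans (Nat.right_le_or) Nat.left_le_or) Nat.left_le_or) hD'
  have hn54 : n54 ≤ 2 * B := le_trans (le_trans (Nat.right_le_or) Nat.left_le_or) hD'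
  have hn55 : n55 ≤ 2 * B := le_trans (Nat.right_le_or) hD'
  have h2 : pm5 M MM H (ub M C n11) (ub M C n21) (ub M C n22) (ub M C n31) (ub M C n32) (ub M C n33) (ub M C n41) (ub M C n42) (ub M C n43) (ub M C n44) (ub M C n51) (ub M C n52) (ub M C n53) (ub M C n54) (ub M C n55) = true := by
    rw [← fm5_eq]; exact h
  have h3 := psd5_s (pm5_s hM hT (ub_s hC hM0 hn11) (ub_s hC hM0 hn21) (ub_s hC hM0 hn22) (ub_s hC hM0 hn31) (ub_s hC hM0 hn32) (ub_s hC hM0 hn33) (ub_s hC hM0 hn41) (ub_s hC hM0 hn42) (ub_s hC hM0 hn43) (ub_s hC hM0 hn44) (ub_s hC hM0 hn51) (ub_s hC hM0 hn52) (ub_s hC hM0 hn53) (ub_s hC hM0 hn54) (ub_s hC hM0 hn55) h2) x1 x2 x3 x4 x5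
  simpa only [Int.cast_sub, Int.cast_natCast] using h3

end Crest.Agent.PSD
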