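import Crest.Agent.Lib.PSD.Fast

/-! # Lib/PSD/Lazy : faster LDL test, only pivots and first columns are reduced and forced (helper7). -/

set_option autoImplicit false

namespace Crest.Agent.PSD

/-- unreduced residue -/
def Rw (M : ℕ) (T : ℤ) (x : ℕ) (a : ℤ) : Prop := (M : ℤ) ∣ (x : ℤ) - a ∧ |a| ≤ T

theorem Rw.mod {M : ℕ} (hM : 0 < M) {T : ℤ} {x : ℕ} {a : ℤ} (h : Rw M T x a) : Rs M T (Nat.mod x M) a := by
  obtain ⟨⟨k, hk⟩, h2⟩ := h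
  have es : Nat.mod x M = x % M := rfl
  refine ⟨by rw [es]; exact Nat.mod_lt _ hM, ⟨k - ((x / M : ℕ) : ℤ), ?_⟩, h2⟩
  have hd := congrArg (fun n : ℕ => (n : ℤ)) (Nat.mod_add_div x M)
  simp only [Nat.cast_add, Nat.cast_mul] at hd
  rw [es]; linarith

theorem sw_s {M MM : ℕ} (hM : MM = M * M) {T : ℤ} {p x y z : ℕ} {a b c d : ℤ}
    (hp : Rs M T p a) (hx : Rw M T x b) (hy : Rs M T y c) (hz : Rs M T z d) :
    Rw M (2 * T ^ 2) (Nat.add (Nat.mul p x) (Nat.sub MM (Nat.mul y z))) (sc a b c d) := by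
  obtain ⟨p1, ⟨kp, p2⟩, p3⟩ := hp
  obtain ⟨⟨kx, x2⟩, x3⟩ := hx
  obtain ⟨y1, ⟨ky, y2⟩, y3⟩ := hy
  obtain ⟨z1, ⟨kz, z2⟩, z3⟩ := hz
  have hle : y * z ≤ MM := by rw [hM]; exact Nat.mul_le_mul y1.le z1.le
  have es : Nat.add (Nat.mul p x) (Nat.sub MM (Nat.mul y z)) = p * x + (MM - y * z) := rfl
  have esc : sc a b c d = a * b - c * d := rfl
  refine ⟨?_, ?_⟩
  · have ea : (p : ℤ) = a + M * kp := by linarith
    have eb : (x : ℤ) = b + M * kx := by linarith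
    have ec : (y : ℤ) = c + M * ky := by linarith
    have ed : (z : ℤ) = d + M * kz := by linarith
    refine ⟨(a * kx + kp * b + M * kp * kx) + M - (c * kz + ky * d + M * ky * kz), ?_⟩
    rw [esc, es]
    simp only [Nat.cast_add, Nat.cast_mul, Nat.cast_sub hle]
    rw [hM]; push_cast
    rw [ea, eb, ec, ed]; ring
  · rw [esc]
    have hT : 0 ≤ T := (abs_nonneg _).trans p3
    have h1 : |a * b| ≤ T ^ 2 := by
      rw [abs_mul, sq]; exact mul_le_mul p3 x3 (abs_nonneg _) hT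
    have h2 : |c * d| ≤ T ^ 2 := by
      rw [abs_mul, sq]; exact mul_le_mul y3 z3 (abs_nonneg _) hT
    have := abs_sub (a * b) (c * d)
    linarith

theorem wb_s {M C B n : ℕ} (hC : C + B = M) (hn : n ≤ 2 * B) :
    Rw M (B : ℤ) (Nat.add n C) ((n : ℤ) - B) := by
  have es : Nat.add n C = n + C := rfl
  have hC' : (C : ℤ) + B = M := by exact_mod_cast hC
  refine ⟨⟨1, by rw [es]; push_cast; linarith⟩, ?_⟩
  have : (n : ℤ) ≤ 2 * B := by exact_mod_cast hn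
  have : (0 : ℤ) ≤ n := by positivity
  rw [abs_le]; constructor <;> linarith

theorem two_b {a b c : Bool} (h : @Bool.rec (fun _ => Bool) false (@Bool.rec (fun _ => Bool) false c b) a = true) :
    (a && b) = true ∧ c = true := by
  cases a <;> cases b <;> simp_all

noncomputable def gm2 (M MM H a11 a21 a22 : ℕ) : Bool :=
  @Nat.rec (fun _ => Bool) false (fun c1 _ =>
  @Bool.rec (fun _ => Bool) false (@Bool.rec (fun _ => Bool) false (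
    @Nat.rec (fun _ => Bool) false (fun c2 _ =>
    Nat.blt (Nat.mod (Nat.add (Nat.mul c1 a22) (Nat.sub MM (Nat.mul c2 c2))) M) H)
      (Nat.succ (Nat.mod a21 M)))
    (Nat.blt c1 H)) (Nat.blt 0 c1))
  (Nat.succ (Nat.mod a11 M))

theorem gm2_s {M MM H : ℕ} (hM : MM = M * M) (hM0 : 0 < M) {T : ℤ} (hT : 2 * T ^ 2 + H ≤ M)
    {x11 x21 x22 : ℕ} {a11 a21 a22 : ℤ}
    (h11 : Rw M T x11 a11) (h21 : Rw M T x21 a21) (h22 : Rw M T x22 a22)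
    (h : gm2 M MM H x11 x21 x22 = true) : psd2 a11 a21 a22 = true := by
  have e0 := @le_two_sq (T)
  have c1 := h11.mod hM0
  have c2 := h21.mod hM0
  have h2 := two_b h
  rw [psd2, Bool.and_eq_true]
  exact ⟨c1.pos (by linarith) h2.1, ((sw_s hM c1 h22 c2 c2).mod hM0).nonneg hT h2.2⟩

noncomputable def gm3 (M MM H a11 a21 a22 a31 a32 a33 : ℕ) : Bool :=
  @Nat.rec (fun _ => Bool) false (fun c1 _ =>
  @Bool.rec (fun _ => Bool) false (@Bool.rec (fun _ => Bool) false (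
    @Nat.rec (fun _ => Bool) false (fun c2 _ =>
    @Nat.rec (fun _ => Bool) false (fun c3 _ =>
    gm2 M MM H
      (Nat.add (Nat.mul c1 a22) (Nat.sub MM (Nat.mul c2 c2)))
      (Nat.add (Nat.mul c1 a32) (Nat.sub MM (Nat.mul c3 c2)))
      (Nat.add (Nat.mul c1 a33) (Nat.sub MM (Nat.mul c3 c3))))
      (Nat.succ (Nat.mod a31 M)))
      (Nat.succ (Nat.mod a21 M)))
    (Nat.blt c1 H)) (Nat.blt 0 c1))
  (Nat.succ (Nat.mod a11 M))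

theorem gm3_s {M MM H : ℕ} (hM : MM = M * M) (hM0 : 0 < M) {T : ℤ} (hT : 2 * (2 * T ^ 2) ^ 2 + H ≤ M)
    {x11 x21 x22 x31 x32 x33 : ℕ} {a11 a21 a22 a31 a32 a33 : ℤ}
    (h11 : Rw M T x11 a11) (h21 : Rw M T x21 a21) (h22 : Rw M T x22 a22) (h31 : Rw M T x31 a31) (h32 : Rw M T x32 a32) (h33 : Rw M T x33 a33)
    (h : gm3 M MM H x11 x21 x22 x31 x32 x33 = true) : psd3 a11 a21 a22 a31 a32 a33 = true := by
  have e0 := @le_two_sq (T)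
  have e1 := @le_two_sq (2 * T ^ 2)
  have c1 := h11.mod hM0
  have c2 := h21.mod hM0
  have c3 := h31.mod hM0
  have h2 := two_b h
  rw [psd3, Bool.and_eq_true]
  exact ⟨c1.pos (by linarith) h2.1, gm2_s hM hM0 hT (sw_s hM c1 h22 c2 c2) (sw_s hM c1 h32 c3 c2) (sw_s hM c1 h33 c3 c3) h2.2⟩

noncomputable def gm4 (M MM H a11 a21 a22 a31 a32 a33 a41 a42 a43 a44 : ℕ) : Bool :=
  @Nat.rec (fun _ => Bool) false (fun c1 _ =>
  @Bool.rec (fun _ => Bool) false (@Bool.rec (fun _ => Bool) false (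
    @Nat.rec (fun _ => Bool) false (fun c2 _ =>
    @Nat.rec (fun _ => Bool) false (fun c3 _ =>
    @Nat.rec (fun _ => Bool) false (fun c4 _ =>
    gm3 M MM H
      (Nat.add (Nat.mul c1 a22) (Nat.sub MM (Nat.mul c2 c2)))
      (Nat.add (Nat.mul c1 a32) (Nat.sub MM (Nat.mul c3 c2)))
      (Nat.add (Nat.mul c1 a33) (Nat.sub MM (Nat.mul c3 c3)))
      (Nat.add (Nat.mul c1 a42) (Nat.sub MM (Nat.mul c4 c2)))
      (Nat.add (Nat.mul c1 a43) (Nat.sub MM (Nat.mul c4 c3)))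
      (Nat.add (Nat.mul c1 a44) (Nat.sub MM (Nat.mul c4 c4))))
      (Nat.succ (Nat.mod a41 M)))
      (Nat.succ (Nat.mod a31 M)))
      (Nat.succ (Nat.mod a21 M)))
    (Nat.blt c1 H)) (Nat.blt 0 c1))
  (Nat.succ (Nat.mod a11 M))

theorem gm4_s {M MM H : ℕ} (hM : MM = M * M) (hM0 : 0 < M) {T : ℤ} (hT : 2 * (2 * (2 * T ^ 2) ^ 2) ^ 2 + H ≤ M)
    {x11 x21 x22 x31 x32 x33 x41 x42 x43 x44 : ℕ} {a11 a21 a22 a31 a32 a33 a41 a42 a43 a44 : ℤ}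
    (h11 : Rw M T x11 a11) (h21 : Rw M T x21 a21) (h22 : Rw M T x22 a22) (h31 : Rw M T x31 a31) (h32 : Rw M T x32 a32) (h33 : Rw M T x33 a33) (h41 : Rw M T x41 a41) (h42 : Rw M T x42 a42) (h43 : Rw M T x43 a43) (h44 : Rw M T x44 a44)
    (h : gm4 M MM H x11 x21 x22 x31 x32 x33 x41 x42 x43 x44 = true) : psd4 a11 a21 a22 a31 a32 a33 a41 a42 a43 a44 = true := by
  have e0 := @le_two_sq (T)
  have e1 := @le_two_sq (2 * T ^ 2)
  have e2 := @le_two_sq (2 * (2 * T ^ 2) ^ 2)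
  have c1 := h11.mod hM0
  have c2 := h21.mod hM0
  have c3 := h31.mod hM0
  have c4 := h41.mod hM0
  have h2 := two_b h
  rw [psd4, Bool.and_eq_true]
  exact ⟨c1.pos (by linarith) h2.1, gm3_s hM hM0 hT (sw_s hM c1 h22 c2 c2) (sw_s hM c1 h32 c3 c2) (sw_s hM c1 h33 c3 c3) (sw_s hM c1 h42 c4 c2) (sw_s hM c1 h43 c4 c3) (sw_s hM c1 h44 c4 c4) h2.2⟩

noncomputable def gm5 (M MM H a11 a21 a22 a31 a32 a33 a41 a42 a43 a44 a51 a52 a53 a54 a55 : ℕ) : Bool :=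
  @Nat.rec (fun _ => Bool) false (fun c1 _ =>
  @Bool.rec (fun _ => Bool) false (@Bool.rec (fun _ => Bool) false (
    @Nat.rec (fun _ => Bool) false (fun c2 _ =>
    @Nat.rec (fun _ => Bool) false (fun c3 _ =>
    @Nat.rec (fun _ => Bool) false (fun c4 _ =>
    @Nat.rec (fun _ => Bool) false (fun c5 _ =>
    gm4 M MM H
      (Nat.add (Nat.mul c1 a22) (Nat.sub MM (Nat.mul c2 c2)))
      (Nat.add (Nat.mul c1 a32) (Nat.sub MM (Nat.mul c3 c2)))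
      (Nat.add (Nat.mul c1 a33) (Nat.sub MM (Nat.mul c3 c3)))
      (Nat.add (Nat.mul c1 a42) (Nat.sub MM (Nat.mul c4 c2)))
      (Nat.add (Nat.mul c1 a43) (Nat.sub MM (Nat.mul c4 c3)))
      (Nat.add (Nat.mul c1 a44) (Nat.sub MM (Nat.mul c4 c4)))
      (Nat.add (Nat.mul c1 a52) (Nat.sub MM (Nat.mul c5 c2)))
      (Nat.add (Nat.mul c1 a53) (Nat.sub MM (Nat.mul c5 c3)))
      (Nat.add (Nat.mul c1 a54) (Nat.sub MM (Nat.mul c5 c4)))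
      (Nat.add (Nat.mul c1 a55) (Nat.sub MM (Nat.mul c5 c5))))
      (Nat.succ (Nat.mod a51 M)))
      (Nat.succ (Nat.mod a41 M)))
      (Nat.succ (Nat.mod a31 M)))
      (Nat.succ (Nat.mod a21 M)))
    (Nat.blt c1 H)) (Nat.blt 0 c1))
  (Nat.succ (Nat.mod a11 M))

theorem gm5_s {M MM H : ℕ} (hM : MM = M * M) (hM0 : 0 < M) {T : ℤ} (hT : 2 * (2 * (2 * (2 * T ^ 2) ^ 2) ^ 2) ^ 2 + H ≤ M)
    {x11 x21 x22 x31 x32 x33 x41 x42 x43 x44 x51 x52 x53 x54 x55 : ℕ} {a11 a21 a22 a31 a32 a33 a41 a42 a43 a44 a51 a52 a53 a54 a55 : ℤ}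
    (h11 : Rw M T x11 a11) (h21 : Rw M T x21 a21) (h22 : Rw M T x22 a22) (h31 : Rw M T x31 a31) (h32 : Rw M T x32 a32) (h33 : Rw M T x33 a33) (h41 : Rw M T x41 a41) (h42 : Rw M T x42 a42) (h43 : Rw M T x43 a43) (h44 : Rw M T x44 a44) (h51 : Rw M T x51 a51) (h52 : Rw M T x52 a52) (h53 : Rw M T x53 a53) (h54 : Rw M T x54 a54) (h55 : Rw M T x55 a55)
    (h : gm5 M MM H x11 x21 x22 x31 x32 x33 x41 x42 x43 x44 x51 x52 x53 x54 x55 = true) : psd5 a11 a21 a22 a31 a32 a33 a41 a42 a43 a44 a51 a52 a53 a54 a55 = true := by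
  have e0 := @le_two_sq (T)
  have e1 := @le_two_sq (2 * T ^ 2)
  have e2 := @le_two_sq (2 * (2 * T ^ 2) ^ 2)
  have e3 := @le_two_sq (2 * (2 * (2 * T ^ 2) ^ 2) ^ 2)
  have c1 := h11.mod hM0
  have c2 := h21.mod hM0
  have c3 := h31.mod hM0
  have c4 := h41.mod hM0
  have c5 := h51.mod hM0
  have h2 := two_b h
  rw [psd5, Bool.and_eq_true]
  exact ⟨c1.pos (by linarith) h2.1, gm4_s hM hM0 hT (sw_s hM c1 h22 c2 c2) (sw_s hM c1 h32 c3 c2) (sw_s hM c1 h33 c3 c3) (sw_s hM c1 h42 c4 c2) (sw_s hM c1 h43 c4 c3) (sw_s hM c1 h44 c4 c4) (sw_s hM c1 h52 c5 c2) (sw_s hM c1 h53 c5 c3) (sw_s hM c1 h54 c5 c4) (sw_s hM c1 h55 c5 c5) h2.2⟩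

/-- test of the matrix with entries `n_ij - B`, all `n_ij ≤ 2B` known to the caller; `C = M - B` -/
noncomputable def gb4 (M MM H C n11 n21 n22 n31 n32 n33 n41 n42 n43 n44 : ℕ) : Bool :=
  gm4 M MM H (Nat.add n11 C) (Nat.add n21 C) (Nat.add n22 C) (Nat.add n31 C) (Nat.add n32 C) (Nat.add n33 C) (Nat.add n41 C) (Nat.add n42 C) (Nat.add n43 C) (Nat.add n44 C)

theorem gb4_s {M MM H C B : ℕ} (hM : MM = M * M) (hC : C + B = M) (hM0 : 0 < M)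
    (hT : 2 * (2 * (2 * (B : ℤ) ^ 2) ^ 2) ^ 2 + H ≤ M) {n11 n21 n22 n31 n32 n33 n41 n42 n43 n44 : ℕ}
    (hn11 : n11 ≤ 2 * B) (hn21 : n21 ≤ 2 * B) (hn22 : n22 ≤ 2 * B) (hn31 : n31 ≤ 2 * B) (hn32 : n32 ≤ 2 * B) (hn33 : n33 ≤ 2 * B) (hn41 : n41 ≤ 2 * B) (hn42 : n42 ≤ 2 * B) (hn43 : n43 ≤ 2 * B) (hn44 : n44 ≤ 2 * B)
    (h : gb4 M MM H C n11 n21 n22 n31 n32 n33 n41 n42 n43 n44 = true) (x1 x2 x3 x4 : ℝ) :
    0 ≤ q4 ((n11 : ℝ) - B) ((n21 : ℝ) - B) ((n22 : ℝ) - B) ((n31 : ℝ) - B) ((n32 : ℝ) - B) ((n33 : ℝ) - B) ((n41 : ℝ) - B) ((n42 : ℝ) - B) ((n43 : ℝ) - B) ((n44 : ℝ) - B) x1 x2 x3 x4 := by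
  have h3 := psd4_s (gm4_s hM hM0 hT (wb_s hC hn11) (wb_s hC hn21) (wb_s hC hn22) (wb_s hC hn31) (wb_s hC hn32) (wb_s hC hn33) (wb_s hC hn41) (wb_s hC hn42) (wb_s hC hn43) (wb_s hC hn44) h) x1 x2 x3 x4
  simpa only [Int.cast_sub, Int.cast_natCast] using h3


/-- test of the matrix with entries `n_ij - B`, all `n_ij ≤ 2B` known to the caller; `C = M - B` -/
noncomputable def gb5 (M MM H C n11 n21 n22 n31 n32 n33 n41 n42 n43 n44 n51 n52 n53 n54 n55 : ℕ) : Bool :=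
  gm5 M MM H (Nat.add n11 C) (Nat.add n21 C) (Nat.add n22 C) (Nat.add n31 C) (Nat.add n32 C) (Nat.add n33 C) (Nat.add n41 C) (Nat.add n42 C) (Nat.add n43 C) (Nat.add n44 C) (Nat.add n51 C) (Nat.add n52 C) (Nat.add n53 C) (Nat.add n54 C) (Nat.add n55 C)

theorem gb5_s {M MM H C B : ℕ} (hM : MM = M * M) (hC : C + B = M) (hM0 : 0 < M)
    (hT : 2 * (2 * (2 * (2 * (B : ℤ) ^ 2) ^ 2) ^ 2) ^ 2 + H ≤ M) {n11 n21 n22 n31 n32 n33 n41 n42 n43 n44 n51 n52 n53 n54 n55 : ℕ}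
    (hn11 : n11 ≤ 2 * B) (hn21 : n21 ≤ 2 * B) (hn22 : n22 ≤ 2 * B) (hn31 : n31 ≤ 2 * B) (hn32 : n32 ≤ 2 * B) (hn33 : n33 ≤ 2 * B) (hn41 : n41 ≤ 2 * B) (hn42 : n42 ≤ 2 * B) (hn43 : n43 ≤ 2 * B) (hn44 : n44 ≤ 2 * B) (hn51 : n51 ≤ 2 * B) (hn52 : n52 ≤ 2 * B) (hn53 : n53 ≤ 2 * B) (hn54 : n54 ≤ 2 * B) (hn55 : n55 ≤ 2 * B)
    (h : gb5 M MM H C n11 n21 n22 n31 n32 n33 n41 n42 n43 n44 n51 n52 n53 n54 n55 = true) (x1 x2 x3 x4 x5 : ℝ) :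
    0 ≤ q5 ((n11 : ℝ) - B) ((n21 : ℝ) - B) ((n22 : ℝ) - B) ((n31 : ℝ) - B) ((n32 : ℝ) - B) ((n33 : ℝ) - B) ((n41 : ℝ) - B) ((n42 : ℝ) - B) ((n43 : ℝ) - B) ((n44 : ℝ) - B) ((n51 : ℝ) - B) ((n52 : ℝ) - B) ((n53 : ℝ) - B) ((n54 : ℝ) - B) ((n55 : ℝ) - B) x1 x2 x3 x4 x5 := by
  have h3 := psd5_s (gm5_s hM hM0 hT (wb_s hC hn11) (wb_s hC hn21) (wb_s hC hn22) (wb_s hC hn31) (wb_s hC hn32) (wb_s hC hn33) (wb_s hC hn41) (wb_s hC hn42) (wb_s hC hn43) (wb_s hC hn44) (wb_s hC hn51) (wb_s hC hn52) (wb_s hC hn53) (wb_s hC hn54) (wb_s hC hn55) h) x1 x2 x3 x4 x5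
  simpa only [Int.cast_sub, Int.cast_natCast] using h3


end Crest.Agent.PSD
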