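import Mathlib.Data.Real.Basic
import Mathlib.Tactic.Linarith
import Mathlib.Tactic.Positivity
import Mathlib.Tactic.Ring
import Mathlib.Tactic.NormNum
import Mathlib.Tactic.FieldSimp
import Mathlib.Data.Int.Cast.Lemmas
import Mathlib.Algebra.Order.Ring.Cast

/-! # Lib/PSD/Ldl : exact-integer LDL test of small symmetric matrices (helper7).
Entries are given row by row of the lower triangle: `a11 a21 a22 a31 a32 a33 ...`. -/

set_option autoImplicit false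

namespace Crest.Agent.PSD

/-- quadratic forms -/
def q2 (a11 a21 a22 x1 x2 : ℝ) : ℝ := a11 * x1 ^ 2 + 2 * a21 * x1 * x2 + a22 * x2 ^ 2

def q3 (a11 a21 a22 a31 a32 a33 x1 x2 x3 : ℝ) : ℝ :=
  a11 * x1 ^ 2 + 2 * a21 * x1 * x2 + a22 * x2 ^ 2 + 2 * a31 * x1 * x3 + 2 * a32 * x2 * x3 + a33 * x3 ^ 2

def q4 (a11 a21 a22 a31 a32 a33 a41 a42 a43 a44 x1 x2 x3 x4 : ℝ) : ℝ :=
  a11 * x1 ^ 2 + 2 * a21 * x1 * x2 + a22 * x2 ^ 2 + 2 * a31 * x1 * x3 + 2 * a32 * x2 * x3 + a33 * x3 ^ 2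
    + 2 * a41 * x1 * x4 + 2 * a42 * x2 * x4 + 2 * a43 * x3 * x4 + a44 * x4 ^ 2

def q5 (a11 a21 a22 a31 a32 a33 a41 a42 a43 a44 a51 a52 a53 a54 a55 x1 x2 x3 x4 x5 : ℝ) : ℝ :=
  a11 * x1 ^ 2 + 2 * a21 * x1 * x2 + a22 * x2 ^ 2 + 2 * a31 * x1 * x3 + 2 * a32 * x2 * x3 + a33 * x3 ^ 2
    + 2 * a41 * x1 * x4 + 2 * a42 * x2 * x4 + 2 * a43 * x3 * x4 + a44 * x4 ^ 2
    + 2 * a51 * x1 * x5 + 2 * a52 * x2 * x5 + 2 * a53 * x3 * x5 + 2 * a54 * x4 * x5 + a55 * x5 ^ 2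

def q6 (a11 a21 a22 a31 a32 a33 a41 a42 a43 a44 a51 a52 a53 a54 a55 a61 a62 a63 a64 a65 a66
    x1 x2 x3 x4 x5 x6 : ℝ) : ℝ :=
  a11 * x1 ^ 2 + 2 * a21 * x1 * x2 + a22 * x2 ^ 2 + 2 * a31 * x1 * x3 + 2 * a32 * x2 * x3 + a33 * x3 ^ 2
    + 2 * a41 * x1 * x4 + 2 * a42 * x2 * x4 + 2 * a43 * x3 * x4 + a44 * x4 ^ 2
    + 2 * a51 * x1 * x5 + 2 * a52 * x2 * x5 + 2 * a53 * x3 * x5 + 2 * a54 * x4 * x5 + a55 * x5 ^ 2
    + 2 * a61 * x1 * x6 + 2 * a62 * x2 * x6 + 2 * a63 * x3 * x6 + 2 * a64 * x4 * x6 + 2 * a65 * x5 * x6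
    + a66 * x6 ^ 2

theorem nn_of_mul {a q : ℝ} (ha : 0 < a) (h : 0 ≤ a * q) : 0 ≤ q := (mul_nonneg_iff_of_pos_left ha).1 h

theorem q2_step {a11 a21 a22 : ℝ} (h : 0 < a11) (H : 0 ≤ a11 * a22 - a21 * a21) (x1 x2 : ℝ) :
    0 ≤ q2 a11 a21 a22 x1 x2 := by
  refine nn_of_mul h ?_
  have e : a11 * q2 a11 a21 a22 x1 x2 = (a11 * x1 + a21 * x2) ^ 2 + (a11 * a22 - a21 * a21) * x2 ^ 2 := by
    unfold q2; ring
  rw [e]; positivity

theorem q3_step {a11 a21 a22 a31 a32 a33 : ℝ} (h : 0 < a11)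
    (H : ∀ x2 x3, 0 ≤ q2 (a11 * a22 - a21 * a21) (a11 * a32 - a31 * a21) (a11 * a33 - a31 * a31) x2 x3)
    (x1 x2 x3 : ℝ) : 0 ≤ q3 a11 a21 a22 a31 a32 a33 x1 x2 x3 := by
  refine nn_of_mul h ?_
  have e : a11 * q3 a11 a21 a22 a31 a32 a33 x1 x2 x3 = (a11 * x1 + a21 * x2 + a31 * x3) ^ 2
      + q2 (a11 * a22 - a21 * a21) (a11 * a32 - a31 * a21) (a11 * a33 - a31 * a31) x2 x3 := by
    unfold q3 q2; ring
  rw [e]; exact add_nonneg (sq_nonneg _) (H _ _)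

theorem q4_step {a11 a21 a22 a31 a32 a33 a41 a42 a43 a44 : ℝ} (h : 0 < a11)
    (H : ∀ x2 x3 x4, 0 ≤ q3 (a11 * a22 - a21 * a21) (a11 * a32 - a31 * a21) (a11 * a33 - a31 * a31)
      (a11 * a42 - a41 * a21) (a11 * a43 - a41 * a31) (a11 * a44 - a41 * a41) x2 x3 x4)
    (x1 x2 x3 x4 : ℝ) : 0 ≤ q4 a11 a21 a22 a31 a32 a33 a41 a42 a43 a44 x1 x2 x3 x4 := by
  refine nn_of_mul h ?_
  have e : a11 * q4 a11 a21 a22 a31 a32 a33 a41 a42 a43 a44 x1 x2 x3 x4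
      = (a11 * x1 + a21 * x2 + a31 * x3 + a41 * x4) ^ 2
      + q3 (a11 * a22 - a21 * a21) (a11 * a32 - a31 * a21) (a11 * a33 - a31 * a31)
      (a11 * a42 - a41 * a21) (a11 * a43 - a41 * a31) (a11 * a44 - a41 * a41) x2 x3 x4 := by
    unfold q4 q3; ring
  rw [e]; exact add_nonneg (sq_nonneg _) (H _ _ _)

theorem q5_step {a11 a21 a22 a31 a32 a33 a41 a42 a43 a44 a51 a52 a53 a54 a55 : ℝ} (h : 0 < a11)
    (H : ∀ x2 x3 x4 x5, 0 ≤ q4 (a11 * a22 - a21 * a21) (a11 * a32 - a31 * a21) (a11 * a33 - a31 * a31)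
      (a11 * a42 - a41 * a21) (a11 * a43 - a41 * a31) (a11 * a44 - a41 * a41)
      (a11 * a52 - a51 * a21) (a11 * a53 - a51 * a31) (a11 * a54 - a51 * a41) (a11 * a55 - a51 * a51)
      x2 x3 x4 x5)
    (x1 x2 x3 x4 x5 : ℝ) :
    0 ≤ q5 a11 a21 a22 a31 a32 a33 a41 a42 a43 a44 a51 a52 a53 a54 a55 x1 x2 x3 x4 x5 := by
  refine nn_of_mul h ?_
  have e : a11 * q5 a11 a21 a22 a31 a32 a33 a41 a42 a43 a44 a51 a52 a53 a54 a55 x1 x2 x3 x4 x5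
      = (a11 * x1 + a21 * x2 + a31 * x3 + a41 * x4 + a51 * x5) ^ 2
      + q4 (a11 * a22 - a21 * a21) (a11 * a32 - a31 * a21) (a11 * a33 - a31 * a31)
      (a11 * a42 - a41 * a21) (a11 * a43 - a41 * a31) (a11 * a44 - a41 * a41)
      (a11 * a52 - a51 * a21) (a11 * a53 - a51 * a31) (a11 * a54 - a51 * a41) (a11 * a55 - a51 * a51)
      x2 x3 x4 x5 := by
    unfold q5 q4; ring
  rw [e]; exact add_nonneg (sq_nonneg _) (H _ _ _ _)

theorem q6_step {a11 a21 a22 a31 a32 a33 a41 a42 a43 a44 a51 a52 a53 a54 a55 a61 a62 a63 a64 a65 a66 : ℝ}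
    (h : 0 < a11)
    (H : ∀ x2 x3 x4 x5 x6, 0 ≤ q5 (a11 * a22 - a21 * a21) (a11 * a32 - a31 * a21) (a11 * a33 - a31 * a31)
      (a11 * a42 - a41 * a21) (a11 * a43 - a41 * a31) (a11 * a44 - a41 * a41)
      (a11 * a52 - a51 * a21) (a11 * a53 - a51 * a31) (a11 * a54 - a51 * a41) (a11 * a55 - a51 * a51)
      (a11 * a62 - a61 * a21) (a11 * a63 - a61 * a31) (a11 * a64 - a61 * a41) (a11 * a65 - a61 * a51)
      (a11 * a66 - a61 * a61) x2 x3 x4 x5 x6)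
    (x1 x2 x3 x4 x5 x6 : ℝ) :
    0 ≤ q6 a11 a21 a22 a31 a32 a33 a41 a42 a43 a44 a51 a52 a53 a54 a55 a61 a62 a63 a64 a65 a66
      x1 x2 x3 x4 x5 x6 := by
  refine nn_of_mul h ?_
  have e : a11 * q6 a11 a21 a22 a31 a32 a33 a41 a42 a43 a44 a51 a52 a53 a54 a55 a61 a62 a63 a64 a65 a66
      x1 x2 x3 x4 x5 x6
      = (a11 * x1 + a21 * x2 + a31 * x3 + a41 * x4 + a51 * x5 + a61 * x6) ^ 2
      + q5 (a11 * a22 - a21 * a21) (a11 * a32 - a31 * a21) (a11 * a33 - a31 * a31)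
      (a11 * a42 - a41 * a21) (a11 * a43 - a41 * a31) (a11 * a44 - a41 * a41)
      (a11 * a52 - a51 * a21) (a11 * a53 - a51 * a31) (a11 * a54 - a51 * a41) (a11 * a55 - a51 * a51)
      (a11 * a62 - a61 * a21) (a11 * a63 - a61 * a31) (a11 * a64 - a61 * a41) (a11 * a65 - a61 * a51)
      (a11 * a66 - a61 * a61) x2 x3 x4 x5 x6 := by
    unfold q6 q5; ring
  rw [e]; exact add_nonneg (sq_nonneg _) (H _ _ _ _ _)

/-! ## Integer version -/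

/-- sign tests by constructor -/
def nonnegI : ℤ → Bool
  | .ofNat _ => true
  | .negSucc _ => false

def posI : ℤ → Bool
  | .ofNat n => Nat.blt 0 n
  | .negSucc _ => false

theorem nonnegI_s {a : ℤ} (h : nonnegI a = true) : (0 : ℝ) ≤ (a : ℝ) := by
  cases a with
  | ofNat n => simp
  | negSucc n => simp [nonnegI] at h

theorem posI_s {a : ℤ} (h : posI a = true) : (0 : ℝ) < (a : ℝ) := by
  cases a with
  | ofNat n =>
    have : 0 < n := by simpa [posI, Nat.blt_eq] using h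
    simpa using this
  | negSucc n => simp [posI] at h

/-- one Schur entry -/
def sc (p x y z : ℤ) : ℤ := Int.sub (Int.mul p x) (Int.mul y z)

theorem sc_cast (p x y z : ℤ) : ((sc p x y z : ℤ) : ℝ) = (p : ℝ) * x - (y : ℝ) * z := by
  have : sc p x y z = p * x - y * z := rfl
  rw [this]; push_cast; ring

def psd2 (a11 a21 a22 : ℤ) : Bool := posI a11 && nonnegI (sc a11 a22 a21 a21)

def psd3 (a11 a21 a22 a31 a32 a33 : ℤ) : Bool :=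
  posI a11 && psd2 (sc a11 a22 a21 a21) (sc a11 a32 a31 a21) (sc a11 a33 a31 a31)

def psd4 (a11 a21 a22 a31 a32 a33 a41 a42 a43 a44 : ℤ) : Bool :=
  posI a11 && psd3 (sc a11 a22 a21 a21) (sc a11 a32 a31 a21) (sc a11 a33 a31 a31)
    (sc a11 a42 a41 a21) (sc a11 a43 a41 a31) (sc a11 a44 a41 a41)

def psd5 (a11 a21 a22 a31 a32 a33 a41 a42 a43 a44 a51 a52 a53 a54 a55 : ℤ) : Bool :=
  posI a11 && psd4 (sc a11 a22 a21 a21) (sc a11 a32 a31 a21) (sc a11 a33 a31 a31)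
    (sc a11 a42 a41 a21) (sc a11 a43 a41 a31) (sc a11 a44 a41 a41)
    (sc a11 a52 a51 a21) (sc a11 a53 a51 a31) (sc a11 a54 a51 a41) (sc a11 a55 a51 a51)

def psd6 (a11 a21 a22 a31 a32 a33 a41 a42 a43 a44 a51 a52 a53 a54 a55 a61 a62 a63 a64 a65 a66 : ℤ) : Bool :=
  posI a11 && psd5 (sc a11 a22 a21 a21) (sc a11 a32 a31 a21) (sc a11 a33 a31 a31)
    (sc a11 a42 a41 a21) (sc a11 a43 a41 a31) (sc a11 a44 a41 a41)
    (sc a11 a52 a51 a21) (sc a11 a53 a51 a31) (sc a11 a54 a51 a41) (sc a11 a55 a51 a51)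
    (sc a11 a62 a61 a21) (sc a11 a63 a61 a31) (sc a11 a64 a61 a41) (sc a11 a65 a61 a51) (sc a11 a66 a61 a61)

theorem psd2_s {a11 a21 a22 : ℤ} (h : psd2 a11 a21 a22 = true) (x1 x2 : ℝ) :
    0 ≤ q2 a11 a21 a22 x1 x2 := by
  simp only [psd2, Bool.and_eq_true] at h
  have := nonnegI_s h.2
  rw [sc_cast] at this
  exact q2_step (posI_s h.1) this x1 x2

theorem psd3_s {a11 a21 a22 a31 a32 a33 : ℤ} (h : psd3 a11 a21 a22 a31 a32 a33 = true) (x1 x2 x3 : ℝ) :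
    0 ≤ q3 a11 a21 a22 a31 a32 a33 x1 x2 x3 := by
  simp only [psd3, Bool.and_eq_true] at h
  have := psd2_s h.2
  simp only [sc_cast] at this
  exact q3_step (posI_s h.1) this x1 x2 x3

theorem psd4_s {a11 a21 a22 a31 a32 a33 a41 a42 a43 a44 : ℤ}
    (h : psd4 a11 a21 a22 a31 a32 a33 a41 a42 a43 a44 = true) (x1 x2 x3 x4 : ℝ) :
    0 ≤ q4 a11 a21 a22 a31 a32 a33 a41 a42 a43 a44 x1 x2 x3 x4 := by
  simp only [psd4, Bool.and_eq_true] at h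
  have := psd3_s h.2
  simp only [sc_cast] at this
  exact q4_step (posI_s h.1) this x1 x2 x3 x4

theorem psd5_s {a11 a21 a22 a31 a32 a33 a41 a42 a43 a44 a51 a52 a53 a54 a55 : ℤ}
    (h : psd5 a11 a21 a22 a31 a32 a33 a41 a42 a43 a44 a51 a52 a53 a54 a55 = true) (x1 x2 x3 x4 x5 : ℝ) :
    0 ≤ q5 a11 a21 a22 a31 a32 a33 a41 a42 a43 a44 a51 a52 a53 a54 a55 x1 x2 x3 x4 x5 := by
  simp only [psd5, Bool.and_eq_true] at h
  have := psd4_s h.2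
  simp only [sc_cast] at this
  exact q5_step (posI_s h.1) this x1 x2 x3 x4 x5

theorem psd6_s {a11 a21 a22 a31 a32 a33 a41 a42 a43 a44 a51 a52 a53 a54 a55 a61 a62 a63 a64 a65 a66 : ℤ}
    (h : psd6 a11 a21 a22 a31 a32 a33 a41 a42 a43 a44 a51 a52 a53 a54 a55 a61 a62 a63 a64 a65 a66 = true)
    (x1 x2 x3 x4 x5 x6 : ℝ) :
    0 ≤ q6 a11 a21 a22 a31 a32 a33 a41 a42 a43 a44 a51 a52 a53 a54 a55 a61 a62 a63 a64 a65 a66
      x1 x2 x3 x4 x5 x6 := by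
  simp only [psd6, Bool.and_eq_true] at h
  have := psd5_s h.2
  simp only [sc_cast] at this
  exact q6_step (posI_s h.1) this x1 x2 x3 x4 x5 x6

/-! ## Biased natural-number version (kernel-fast): entry `a = n - B`, arithmetic modulo `M` -/

/-- residue `x` of an integer `a` with `|a| ≤ T` -/
def Rs (M : ℕ) (T : ℤ) (x : ℕ) (a : ℤ) : Prop := x < M ∧ (M : ℤ) ∣ (x : ℤ) - a ∧ |a| ≤ T

def sm (M MM p x y z : ℕ) : ℕ := Nat.mod (Nat.add (Nat.mul p x) (Nat.sub MM (Nat.mul y z))) M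

theorem sm_s {M MM : ℕ} (hM : MM = M * M) {T : ℤ} {p x y z : ℕ} {a b c d : ℤ}
    (hp : Rs M T p a) (hx : Rs M T x b) (hy : Rs M T y c) (hz : Rs M T z d) :
    Rs M (2 * T ^ 2) (sm M MM p x y z) (sc a b c d) := by
  obtain ⟨p1, ⟨kp, p2⟩, p3⟩ := hp
  obtain ⟨x1, ⟨kx, x2⟩, x3⟩ := hx
  obtain ⟨y1, ⟨ky, y2⟩, y3⟩ := hy
  obtain ⟨z1, ⟨kz, z2⟩, z3⟩ := hz
  have hM0 : 0 < M := by omega
  have hle : y * z ≤ MM := by rw [hM]; exact Nat.mul_le_mul y1.le z1.le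
  have es : sm M MM p x y z = (p * x + (MM - y * z)) % M := rfl
  have esc : sc a b c d = a * b - c * d := rfl
  refine ⟨by rw [es]; exact Nat.mod_lt _ hM0, ?_, ?_⟩
  · have hd := Nat.mod_add_div (p * x + (MM - y * z)) M
    rw [← es] at hd
    have hd' : ((sm M MM p x y z : ℕ) : ℤ) + (M : ℤ) * (((p * x + (MM - y * z)) / M : ℕ) : ℤ)
        = (p : ℤ) * x + ((M : ℤ) * M - (y : ℤ) * z) := by
      have := congrArg (fun n : ℕ => (n : ℤ)) hd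
      simp only [Nat.cast_add, Nat.cast_mul, Nat.cast_sub hle] at this
      rw [this, hM]; push_cast; ring
    have ea : (p : ℤ) = a + M * kp := by linarith
    have eb : (x : ℤ) = b + M * kx := by linarith
    have ec : (y : ℤ) = c + M * ky := by linarith
    have ed : (z : ℤ) = d + M * kz := by linarith
    refine ⟨(a * kx + kp * b + M * kp * kx) + M - (c * kz + ky * d + M * ky * kz)
      - (((p * x + (MM - y * z)) / M : ℕ) : ℤ), ?_⟩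
    rw [esc]
    have : ((sm M MM p x y z : ℕ) : ℤ) = (p : ℤ) * x + ((M : ℤ) * M - (y : ℤ) * z)
        - (M : ℤ) * (((p * x + (MM - y * z)) / M : ℕ) : ℤ) := by linarith
    rw [this, ea, eb, ec, ed]; ring
  · rw [esc]
    have hT : 0 ≤ T := (abs_nonneg _).trans p3
    have h1 : |a * b| ≤ T ^ 2 := by
      rw [abs_mul, sq]; exact mul_le_mul p3 x3 (abs_nonneg _) hT
    have h2 : |c * d| ≤ T ^ 2 := by
      rw [abs_mul, sq]; exact mul_le_mul y3 z3 (abs_nonneg _) hT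
    have := abs_sub (a * b) (c * d)
    linarith

theorem Rs.eq_of_lt {M H : ℕ} {T : ℤ} {x : ℕ} {a : ℤ} (h : Rs M T x a) (hx : x < H) (hT : T + H ≤ M) :
    a = x := by
  obtain ⟨_, ⟨k, h2⟩, h3⟩ := h
  have ha := abs_le.1 h3
  have hx' : (x : ℤ) < H := by exact_mod_cast hx
  have hx0 : (0 : ℤ) ≤ x := by positivity
  have hM : (0 : ℤ) < M := by linarith [ha.1, ha.2]
  have k1 : (M : ℤ) * k < M * 1 := by linarith [ha.1]
  have k2 : (M : ℤ) * (-1) < M * k := by linarith [ha.2]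
  have k1' : k < 1 := lt_of_mul_lt_mul_left k1 hM.le
  have k2' : -1 < k := lt_of_mul_lt_mul_left k2 hM.le
  have : k = 0 := by omega
  rw [this] at h2; linarith

theorem Rs.pos {M H : ℕ} {T : ℤ} {x : ℕ} {a : ℤ} (h : Rs M T x a) (hT : T + H ≤ M)
    (hx : (Nat.blt 0 x && Nat.blt x H) = true) : posI a = true := by
  simp only [Bool.and_eq_true, Nat.blt_eq] at hx
  rw [h.eq_of_lt hx.2 hT]
  show Nat.blt 0 x = true
  simpa [Nat.blt_eq] using hx.1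

theorem Rs.nonneg {M H : ℕ} {T : ℤ} {x : ℕ} {a : ℤ} (h : Rs M T x a) (hT : T + H ≤ M)
    (hx : Nat.blt x H = true) : nonnegI a = true := by
  simp only [Nat.blt_eq] at hx
  rw [h.eq_of_lt hx hT]; rfl

def pm2 (M MM H a11 a21 a22 : ℕ) : Bool :=
  (Nat.blt 0 a11 && Nat.blt a11 H) && Nat.blt (sm M MM a11 a22 a21 a21) H

def pm3 (M MM H a11 a21 a22 a31 a32 a33 : ℕ) : Bool :=
  (Nat.blt 0 a11 && Nat.blt a11 H) &&
    pm2 M MM H (sm M MM a11 a22 a21 a21) (sm M MM a11 a32 a31 a21) (sm M MM a11 a33 a31 a31)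

def pm4 (M MM H a11 a21 a22 a31 a32 a33 a41 a42 a43 a44 : ℕ) : Bool :=
  (Nat.blt 0 a11 && Nat.blt a11 H) &&
    pm3 M MM H (sm M MM a11 a22 a21 a21) (sm M MM a11 a32 a31 a21) (sm M MM a11 a33 a31 a31)
    (sm M MM a11 a42 a41 a21) (sm M MM a11 a43 a41 a31) (sm M MM a11 a44 a41 a41)

def pm5 (M MM H a11 a21 a22 a31 a32 a33 a41 a42 a43 a44 a51 a52 a53 a54 a55 : ℕ) : Bool :=
  (Nat.blt 0 a11 && Nat.blt a11 H) &&
    pm4 M MM H (sm M MM a11 a22 a21 a21) (sm M MM a11 a32 a31 a21) (sm M MM a11 a33 a31 a31)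
    (sm M MM a11 a42 a41 a21) (sm M MM a11 a43 a41 a31) (sm M MM a11 a44 a41 a41)
    (sm M MM a11 a52 a51 a21) (sm M MM a11 a53 a51 a31) (sm M MM a11 a54 a51 a41) (sm M MM a11 a55 a51 a51)

theorem le_two_sq {T : ℤ} : T ≤ 2 * T ^ 2 := by nlinarith [sq_nonneg (T - 1), sq_nonneg T]

theorem pm2_s {M MM H : ℕ} (hM : MM = M * M) {T : ℤ} (hT : 2 * T ^ 2 + H ≤ M) {x11 x21 x22 : ℕ}
    {a11 a21 a22 : ℤ} (h11 : Rs M T x11 a11) (h21 : Rs M T x21 a21) (h22 : Rs M T x22 a22)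
    (h : pm2 M MM H x11 x21 x22 = true) : psd2 a11 a21 a22 = true := by
  rw [pm2, Bool.and_eq_true] at h
  rw [psd2, Bool.and_eq_true]
  exact ⟨h11.pos (by linarith [@le_two_sq T]) h.1, (sm_s hM h11 h22 h21 h21).nonneg hT h.2⟩

theorem pm3_s {M MM H : ℕ} (hM : MM = M * M) {T : ℤ} (hT : 2 * (2 * T ^ 2) ^ 2 + H ≤ M)
    {x11 x21 x22 x31 x32 x33 : ℕ} {a11 a21 a22 a31 a32 a33 : ℤ}
    (h11 : Rs M T x11 a11) (h21 : Rs M T x21 a21) (h22 : Rs M T x22 a22)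
    (h31 : Rs M T x31 a31) (h32 : Rs M T x32 a32) (h33 : Rs M T x33 a33)
    (h : pm3 M MM H x11 x21 x22 x31 x32 x33 = true) : psd3 a11 a21 a22 a31 a32 a33 = true := by
  rw [pm3, Bool.and_eq_true] at h
  rw [psd3, Bool.and_eq_true]
  exact ⟨h11.pos (by linarith [@le_two_sq T, @le_two_sq (2 * T ^ 2)]) h.1,
    pm2_s hM hT (sm_s hM h11 h22 h21 h21) (sm_s hM h11 h32 h31 h21) (sm_s hM h11 h33 h31 h31) h.2⟩

theorem pm4_s {M MM H : ℕ} (hM : MM = M * M) {T : ℤ} (hT : 2 * (2 * (2 * T ^ 2) ^ 2) ^ 2 + H ≤ M)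
    {x11 x21 x22 x31 x32 x33 x41 x42 x43 x44 : ℕ} {a11 a21 a22 a31 a32 a33 a41 a42 a43 a44 : ℤ}
    (h11 : Rs M T x11 a11) (h21 : Rs M T x21 a21) (h22 : Rs M T x22 a22)
    (h31 : Rs M T x31 a31) (h32 : Rs M T x32 a32) (h33 : Rs M T x33 a33)
    (h41 : Rs M T x41 a41) (h42 : Rs M T x42 a42) (h43 : Rs M T x43 a43) (h44 : Rs M T x44 a44)
    (h : pm4 M MM H x11 x21 x22 x31 x32 x33 x41 x42 x43 x44 = true) :
    psd4 a11 a21 a22 a31 a32 a33 a41 a42 a43 a44 = true := by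
  rw [pm4, Bool.and_eq_true] at h
  rw [psd4, Bool.and_eq_true]
  exact ⟨h11.pos (by linarith [@le_two_sq T, @le_two_sq (2 * T ^ 2), @le_two_sq (2 * (2 * T ^ 2) ^ 2)]) h.1,
    pm3_s hM hT (sm_s hM h11 h22 h21 h21) (sm_s hM h11 h32 h31 h21) (sm_s hM h11 h33 h31 h31)
      (sm_s hM h11 h42 h41 h21) (sm_s hM h11 h43 h41 h31) (sm_s hM h11 h44 h41 h41) h.2⟩

theorem pm5_s {M MM H : ℕ} (hM : MM = M * M) {T : ℤ}
    (hT : 2 * (2 * (2 * (2 * T ^ 2) ^ 2) ^ 2) ^ 2 + H ≤ M)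
    {x11 x21 x22 x31 x32 x33 x41 x42 x43 x44 x51 x52 x53 x54 x55 : ℕ}
    {a11 a21 a22 a31 a32 a33 a41 a42 a43 a44 a51 a52 a53 a54 a55 : ℤ}
    (h11 : Rs M T x11 a11) (h21 : Rs M T x21 a21) (h22 : Rs M T x22 a22)
    (h31 : Rs M T x31 a31) (h32 : Rs M T x32 a32) (h33 : Rs M T x33 a33)
    (h41 : Rs M T x41 a41) (h42 : Rs M T x42 a42) (h43 : Rs M T x43 a43) (h44 : Rs M T x44 a44)
    (h51 : Rs M T x51 a51) (h52 : Rs M T x52 a52) (h53 : Rs M T x53 a53) (h54 : Rs M T x54 a54)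
    (h55 : Rs M T x55 a55)
    (h : pm5 M MM H x11 x21 x22 x31 x32 x33 x41 x42 x43 x44 x51 x52 x53 x54 x55 = true) :
    psd5 a11 a21 a22 a31 a32 a33 a41 a42 a43 a44 a51 a52 a53 a54 a55 = true := by
  rw [pm5, Bool.and_eq_true] at h
  rw [psd5, Bool.and_eq_true]
  have e1 := @le_two_sq T
  have e2 := @le_two_sq (2 * T ^ 2)
  have e3 := @le_two_sq (2 * (2 * T ^ 2) ^ 2)
  have e4 := @le_two_sq (2 * (2 * (2 * T ^ 2) ^ 2) ^ 2)
  exact ⟨h11.pos (by linarith) h.1,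
    pm4_s hM hT (sm_s hM h11 h22 h21 h21) (sm_s hM h11 h32 h31 h21) (sm_s hM h11 h33 h31 h31)
      (sm_s hM h11 h42 h41 h21) (sm_s hM h11 h43 h41 h31) (sm_s hM h11 h44 h41 h41)
      (sm_s hM h11 h52 h51 h21) (sm_s hM h11 h53 h51 h31) (sm_s hM h11 h54 h51 h41)
      (sm_s hM h11 h55 h51 h51) h.2⟩

/-- residue of a biased entry `n - B`; `C = M - B` -/
def ub (M C n : ℕ) : ℕ := Nat.mod (Nat.add n C) M

theorem ub_s {M C B n : ℕ} (hC : C + B = M) (hM : 0 < M) (hn : n ≤ 2 * B) :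
    Rs M (B : ℤ) (ub M C n) ((n : ℤ) - B) := by
  have es : ub M C n = (n + C) % M := rfl
  refine ⟨by rw [es]; exact Nat.mod_lt _ hM, ?_, ?_⟩
  · have hd := Nat.mod_add_div (n + C) M
    rw [← es] at hd
    have hd' := congrArg (fun n : ℕ => (n : ℤ)) hd
    simp only [Nat.cast_add, Nat.cast_mul] at hd'
    have hC' : (C : ℤ) + B = M := by exact_mod_cast hC
    exact ⟨1 - (((n + C) / M : ℕ) : ℤ), by linarith⟩
  · have : (n : ℤ) ≤ 2 * B := by exact_mod_cast hn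
    have : (0 : ℤ) ≤ n := by positivity
    rw [abs_le]; constructor <;> linarith

/-! ## Perturbation: entrywise radius gives a diagonal -/

theorem two_mul_le {e r x y t : ℝ} (ht : 0 < t) (h : |e| ≤ r) : -(r * (t * x ^ 2 + y ^ 2 / t)) ≤ 2 * e * x * y := by
  have hr : 0 ≤ r := (abs_nonneg _).trans h
  have h1 : 2 * |x * y| ≤ t * x ^ 2 + y ^ 2 / t := by
    have : 0 ≤ (t * |x| - |y|) ^ 2 / t := by positivity
    have e2 : (t * |x| - |y|) ^ 2 / t = t * |x| ^ 2 + |y| ^ 2 / t - 2 * (|x| * |y|) := by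
      field_simp; ring
    rw [e2, sq_abs, sq_abs, ← abs_mul] at this
    linarith
  have h2 : |e * (x * y)| ≤ r * |x * y| := by
    rw [abs_mul]; exact mul_le_mul_of_nonneg_right h (abs_nonneg _)
  have h3 := neg_abs_le (e * (x * y))
  nlinarith [abs_nonneg (x * y)]

theorem two_mul_le1 {e r : ℝ} (h : |e| ≤ r) (x y : ℝ) : -(r * (x ^ 2 + y ^ 2)) ≤ 2 * e * x * y := by
  have := two_mul_le (x := x) (y := y) one_pos h
  simpa using this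

theorem sq_le1 {e r : ℝ} (h : |e| ≤ r) (x : ℝ) : -(r * x ^ 2) ≤ e * x ^ 2 := by
  have := neg_abs_le e
  nlinarith [sq_nonneg x]

/-- `|e_ij| ≤ r_ij` gives `q5 e ≥ - diag (row sums of r)` -/
theorem q5_rad {e11 e21 e22 e31 e32 e33 e41 e42 e43 e44 e51 e52 e53 e54 e55
    r11 r21 r22 r31 r32 r33 r41 r42 r43 r44 r51 r52 r53 r54 r55 : ℝ}
    (h11 : |e11| ≤ r11) (h21 : |e21| ≤ r21) (h22 : |e22| ≤ r22) (h31 : |e31| ≤ r31) (h32 : |e32| ≤ r32)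
    (h33 : |e33| ≤ r33) (h41 : |e41| ≤ r41) (h42 : |e42| ≤ r42) (h43 : |e43| ≤ r43) (h44 : |e44| ≤ r44)
    (h51 : |e51| ≤ r51) (h52 : |e52| ≤ r52) (h53 : |e53| ≤ r53) (h54 : |e54| ≤ r54) (h55 : |e55| ≤ r55)
    (x1 x2 x3 x4 x5 : ℝ) :
    -((r11 + r21 + r31 + r41 + r51) * x1 ^ 2 + (r21 + r22 + r32 + r42 + r52) * x2 ^ 2
      + (r31 + r32 + r33 + r43 + r53) * x3 ^ 2 + (r41 + r42 + r43 + r44 + r54) * x4 ^ 2
      + (r51 + r52 + r53 + r54 + r55) * x5 ^ 2)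
      ≤ q5 e11 e21 e22 e31 e32 e33 e41 e42 e43 e44 e51 e52 e53 e54 e55 x1 x2 x3 x4 x5 := by
  unfold q5
  linarith [sq_le1 h11 x1, sq_le1 h22 x2, sq_le1 h33 x3, sq_le1 h44 x4, sq_le1 h55 x5,
    two_mul_le1 h21 x1 x2, two_mul_le1 h31 x1 x3, two_mul_le1 h32 x2 x3, two_mul_le1 h41 x1 x4,
    two_mul_le1 h42 x2 x4, two_mul_le1 h43 x3 x4, two_mul_le1 h51 x1 x5, two_mul_le1 h52 x2 x5,
    two_mul_le1 h53 x3 x5, two_mul_le1 h54 x4 x5]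

theorem q4_rad {e11 e21 e22 e31 e32 e33 e41 e42 e43 e44 r11 r21 r22 r31 r32 r33 r41 r42 r43 r44 : ℝ}
    (h11 : |e11| ≤ r11) (h21 : |e21| ≤ r21) (h22 : |e22| ≤ r22) (h31 : |e31| ≤ r31) (h32 : |e32| ≤ r32)
    (h33 : |e33| ≤ r33) (h41 : |e41| ≤ r41) (h42 : |e42| ≤ r42) (h43 : |e43| ≤ r43) (h44 : |e44| ≤ r44)
    (x1 x2 x3 x4 : ℝ) :
    -((r11 + r21 + r31 + r41) * x1 ^ 2 + (r21 + r22 + r32 + r42) * x2 ^ 2
      + (r31 + r32 + r33 + r43) * x3 ^ 2 + (r41 + r42 + r43 + r44) * x4 ^ 2)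
      ≤ q4 e11 e21 e22 e31 e32 e33 e41 e42 e43 e44 x1 x2 x3 x4 := by
  unfold q4
  linarith [sq_le1 h11 x1, sq_le1 h22 x2, sq_le1 h33 x3, sq_le1 h44 x4,
    two_mul_le1 h21 x1 x2, two_mul_le1 h31 x1 x3, two_mul_le1 h32 x2 x3, two_mul_le1 h41 x1 x4,
    two_mul_le1 h42 x2 x4, two_mul_le1 h43 x3 x4]

end Crest.Agent.PSD
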